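import Vale.Agent.P181.BK.Spec

set_option autoImplicit false

open scoped TensorProduct

namespace Vale.Agent.P181.H907

open Vale.Agent.P181 Vale.Agent.P181.H280 Vale.Agent.P181.H179 Vale.Agent.P181.H530 Finset

/-- Row E: the special groups are spread in one way only. -/
theorem rowE : BK.RowE := by
  intro n a u N Q l' F e fm hn A hA col hcol h5 h6 h7 τ hV j
  classical
  obtain ⟨row, hrow⟩ : ∃ row : Box l' → Fin a, ∀ p, row p =
      Sum.elim (fun x : Fin a × Fin Q => x.1) (fun j => τ j (e p)) (fm p) := ⟨_, fun _ => rfl⟩
  have hc : ∀ t v w, v ≠ w → row ⟨t, v⟩ ≠ row ⟨t, w⟩ := by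
    intro t v w hvw h
    rw [hrow, hrow] at h
    exact hV (VV_anti F _ t hvw h)
  have hnormal : ∀ p x, fm p = Sum.inl x → row p = e p := by
    intro p x hp
    rw [hrow, hp, Sum.elim_inl, hn p x.1 x.2 hp]
  have hspecial : ∀ p k, fm p = Sum.inr k → row p = τ k (e p) := by
    intro p k hp
    rw [hrow, hp, Sum.elim_inr]
  have hmain : ∀ m k i, A k i = m → τ k i = i := by
    intro m
    induction m using Nat.strong_induction_on with
    | _ m ih =>
      intro k i hki
      choose v hv using h5 k i
      have hv_inj : Function.Injective v := by
        intro i' i'' h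
        rw [← hv i', ← hv i'', h]
      let μ : Fin a → Fin a := fun i' => row ⟨col (A k i), v i'⟩
      have hμinj : Function.Injective μ := by
        intro i' i'' h
        by_contra hne
        exact hc _ (v i') (v i'') (fun h' => hne (hv_inj h')) h
      have hμ : ∀ i', i' ≤ μ i' := by
        intro i'
        rcases hf : fm ⟨col (A k i), v i'⟩ with x | k'
        · have h8 := hnormal _ x hf
          simp only [μ]
          rw [h8, hv]
        · have h8 := h7 _ k' hf
          simp only at h8
          rw [hv] at h8
          have h9 := hcol k i k' i' h8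
          have h10 := hspecial _ k' hf
          rw [hv] at h10
          by_contra hlt
          rw [not_le] at hlt
          have h11 : μ i' = τ k' i' := h10
          have h12 := ih (A k' (μ i')) (by
            rw [← hki, h9]
            exact hA k' hlt) k' (μ i') rfl
          have h13 : τ k' (μ i') = τ k' i' := by
            rw [h12, h11]
          exact hlt.ne ((τ k').injective h13)
      have h8 := id_of_le μ hμinj hμ i
      have h9 := hspecial ⟨col (A k i), v i⟩ k (h6 k i (v i) (hv i))
      rw [hv] at h9
      rw [← h9]
      exact h8
  ext i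
  rw [hmain _ j i rfl]
  rfl

end Vale.Agent.P181.H907
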