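import Vale.Agent.P181.H676.Tail

/-!
# The last step of the almost-all theorem, abstract part
-/

namespace Vale.Agent.P181.H907

open Finset Filter Topology Vale.Agent.P181.H676

/-- if `P` holds for all `lam` with all entries at most `s (q a)` then the exceptions in
`Lam a (a (q a))` are at most `(a (q a) + 1) / 2^(s/4)` of all. -/
theorem almost_abs {a q s : ℕ} (ha : 1 ≤ a) (hq : 1 ≤ q) (P : (Fin a → ℕ) → Prop)
    [DecidablePred fun l : Fin a → ℕ => ¬ P l]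
    (hP : ∀ lam : Fin a → ℕ, (∀ m, lam m + q * a ≤ (s + 1) * (q * a)) → P lam) :
    ((Lam a (a * (q * a))).filter fun l => ¬ P l).card * 2 ^ (s / 4) ≤
      (a * (q * a) + 1) * (Lam a (a * (q * a))).card := by
  have hb : 1 ≤ q * a := Nat.one_le_iff_ne_zero.2 (Nat.mul_ne_zero (by omega) (by omega))
  have hab : a ≤ 4 * (q * a) := by
    have : a ≤ q * a := Nat.le_mul_of_pos_left _ hq
    omega
  have h1 := tail a (q * a) (s * (q * a)) hb hab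
  have h2 : s * (q * a) / (4 * (q * a)) = s / 4 := Nat.mul_div_mul_right _ _ hb
  rw [h2] at h1
  refine le_trans (Nat.mul_le_mul_right _ (Finset.card_le_card ?_)) h1
  intro l hl
  have h3 := Finset.mem_filter.1 hl
  refine Finset.mem_filter.2 ⟨h3.1, ?_⟩
  by_contra h4
  push Not at h4
  refine h3.2 (hP l fun m => ?_)
  have h5 := h4 m
  have h6 : (s + 1) * (q * a) = s * (q * a) + q * a := by ring
  omega

/-- the numbers: for large `a` there is an `s` with everything. -/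
theorem exists_s (q : ℕ) (hq : 1 ≤ q) : ∀ᶠ a : ℕ in atTop, ∃ s : ℕ, 2 ≤ s ∧
    25 * s ^ 4 * q ^ 2 ≤ a ∧
    (10 : ℝ) ^ 6 * (s : ℝ) ^ 14 * (q : ℝ) ^ 9 * a * Real.log a ≤ ((q * a : ℕ) : ℝ) ^ 2 ∧
    ((a * (q * a) + 1 : ℕ) : ℝ) ≤ Real.exp (-(a : ℝ) ^ (1 / 15 : ℝ)) * (2 : ℝ) ^ (s / 4) := by
  have hq1 : (1 : ℝ) ≤ q := by exact_mod_cast hq
  have hq0 : (0 : ℝ) < q := by linarith
  -- eventually in a real variable
  have E1 : ∀ᶠ x : ℝ in atTop, 25 * 9 ^ 4 * (q : ℝ) ^ 2 ≤ x := eventually_ge_atTop _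
  have E2 : ∀ᶠ x : ℝ in atTop,
      Real.log x ≤ (15 * 10 ^ 6 * 9 ^ 14 * (q : ℝ) ^ 7)⁻¹ * x := by
    have hc : 0 < (15 * 10 ^ 6 * 9 ^ 14 * (q : ℝ) ^ 7)⁻¹ := by positivity
    filter_upwards [Real.isLittleO_log_id_atTop.bound hc, eventually_ge_atTop (1 : ℝ)] with x hx h1
    have h2 : 0 ≤ Real.log x := Real.log_nonneg h1
    rw [Real.norm_of_nonneg h2, id, Real.norm_of_nonneg (by linarith)] at hx
    exact hx
  have E3 : ∀ᶠ x : ℝ in atTop, x ^ 32 ≤ Real.exp ((3 / 10 : ℝ) * x) := by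
    have h := (isLittleO_pow_exp_pos_mul_atTop 32 (by norm_num : (0 : ℝ) < 3 / 10)).bound
      (by norm_num : (0 : ℝ) < 1)
    filter_upwards [h, eventually_ge_atTop (0 : ℝ)] with x hx h0
    rw [Real.norm_of_nonneg (pow_nonneg h0 _), Real.norm_of_nonneg (Real.exp_pos _).le,
      one_mul] at hx
    exact hx
  have E4 : ∀ᶠ x : ℝ in atTop, (q : ℝ) + 1 ≤ x := eventually_ge_atTop _
  have E5 : ∀ᶠ x : ℝ in atTop, (10 : ℝ) ≤ x := eventually_ge_atTop _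
  have T : Tendsto (fun a : ℕ => (a : ℝ) ^ (1 / 15 : ℝ)) atTop atTop :=
    (tendsto_rpow_atTop (by norm_num : (0 : ℝ) < 1 / 15)).comp tendsto_natCast_atTop_atTop
  filter_upwards [T.eventually E1, T.eventually E2, T.eventually E3, T.eventually E4,
    T.eventually E5] with a e1 e2 e3 e4 e5
  set x : ℝ := (a : ℝ) ^ (1 / 15 : ℝ) with hx
  have hxa : x ^ 15 = (a : ℝ) := by
    rw [hx, ← Real.rpow_natCast, ← Real.rpow_mul (Nat.cast_nonneg _)]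
    norm_num
  have hx0 : 0 < x := by linarith
  have hx1 : 1 ≤ x := by linarith
  have hlog : Real.log a = 15 * Real.log x := by
    rw [← hxa, Real.log_pow]
    norm_num
  refine ⟨⌈8 * x⌉₊, ?_, ?_, ?_, ?_⟩
  · have h1 : (8 * x : ℝ) ≤ ⌈8 * x⌉₊ := Nat.le_ceil _
    have h2 : (2 : ℝ) ≤ ⌈8 * x⌉₊ := by linarith
    exact_mod_cast h2
  all_goals
    have h1 : (8 * x : ℝ) ≤ ⌈8 * x⌉₊ := Nat.le_ceil _
    have h2 : (⌈8 * x⌉₊ : ℝ) ≤ 9 * x := by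
      have := Nat.ceil_lt_add_one (by positivity : (0 : ℝ) ≤ 8 * x)
      linarith
  · have h3 : (25 : ℝ) * (⌈8 * x⌉₊ : ℝ) ^ 4 * (q : ℝ) ^ 2 ≤ a := by
      calc (25 : ℝ) * (⌈8 * x⌉₊ : ℝ) ^ 4 * (q : ℝ) ^ 2
          ≤ 25 * (9 * x) ^ 4 * (q : ℝ) ^ 2 := by gcongr
        _ = (25 * 9 ^ 4 * (q : ℝ) ^ 2) * x ^ 4 := by ring
        _ ≤ x * x ^ 4 := by gcongr
        _ = x ^ 5 := by ring
        _ ≤ x ^ 15 := pow_le_pow_right₀ hx1 (by norm_num)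
        _ = a := hxa
    exact_mod_cast h3
  · have hl0 : 0 ≤ Real.log x := Real.log_nonneg hx1
    rw [hlog]
    push_cast
    calc (10 : ℝ) ^ 6 * (⌈8 * x⌉₊ : ℝ) ^ 14 * (q : ℝ) ^ 9 * a * (15 * Real.log x)
        ≤ (10 : ℝ) ^ 6 * (9 * x) ^ 14 * (q : ℝ) ^ 9 * a *
            (15 * ((15 * 10 ^ 6 * 9 ^ 14 * (q : ℝ) ^ 7)⁻¹ * x)) := by gcongr
      _ = (q : ℝ) ^ 2 * (x ^ 15 * a) := by
          field_simp
      _ = ((q : ℝ) * a) ^ 2 := by rw [hxa]; ring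
  · have h3 : ((a * (q * a) + 1 : ℕ) : ℝ) ≤ x ^ 32 := by
      push_cast
      rw [← hxa]
      have h4 : x ^ 15 * ((q : ℝ) * x ^ 15) + 1 ≤ ((q : ℝ) + 1) * x ^ 30 := by
        have h5 : (1 : ℝ) ≤ x ^ 30 := one_le_pow₀ hx1
        nlinarith
      calc x ^ 15 * ((q : ℝ) * x ^ 15) + 1 ≤ ((q : ℝ) + 1) * x ^ 30 := h4
        _ ≤ x * x ^ 30 := by gcongr
        _ = x ^ 31 := by ring
        _ ≤ x ^ 32 := pow_le_pow_right₀ hx1 (by norm_num)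
    have h6 : (3 / 10 : ℝ) * x ≤ -x + Real.log 2 * (2 * x - 1) := by
      have h7 : (0.69 : ℝ) ≤ Real.log 2 := by
        have := Real.log_two_gt_d9
        norm_num at this ⊢
        linarith
      nlinarith
    have h8 : (2 * x - 1 : ℝ) ≤ ((⌈8 * x⌉₊ / 4 : ℕ) : ℝ) := by
      have h9 : ⌈8 * x⌉₊ ≤ 4 * (⌈8 * x⌉₊ / 4) + 3 := by omega
      have h10 : ((⌈8 * x⌉₊ : ℕ) : ℝ) ≤ 4 * ((⌈8 * x⌉₊ / 4 : ℕ) : ℝ) + 3 := by exact_mod_cast h9
      linarith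
    calc ((a * (q * a) + 1 : ℕ) : ℝ) ≤ x ^ 32 := h3
      _ ≤ Real.exp ((3 / 10 : ℝ) * x) := e3
      _ ≤ Real.exp (-x + Real.log 2 * (2 * x - 1)) := Real.exp_le_exp.2 h6
      _ ≤ Real.exp (-x + Real.log 2 * ((⌈8 * x⌉₊ / 4 : ℕ) : ℝ)) := by
          refine Real.exp_le_exp.2 ?_
          have : 0 ≤ Real.log 2 := Real.log_nonneg (by norm_num)
          nlinarith
      _ = Real.exp (-x) * (2 : ℝ) ^ (⌈8 * x⌉₊ / 4) := by
          rw [Real.exp_add, mul_comm (Real.log 2), Real.exp_nat_mul,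
            Real.exp_log (by norm_num)]

end Vale.Agent.P181.H907
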