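import Vale.Agent.P181.H907.AlmostA
import Vale.Agent.P181.H280.Defs

/-!
# Foulkes' inequality for `(a, q a)` and almost all `lam`
-/

set_option autoImplicit false

namespace Vale.Agent.P181.H907

open Finset Filter Topology Vale.Agent.P181.H676 Vale.Agent.P181.H280

/-- the input (T): literal of `H626.multK` (first alternative). -/
def MultK : Prop := ∀ s q a X n : ℕ, 1 ≤ n → 2 ≤ s → 1 ≤ q → 25 * s ^ 4 * q ^ 2 ≤ a →
  (10 : ℝ) ^ 6 * (s : ℝ) ^ 14 * (q : ℝ) ^ 9 * (a : ℝ) * Real.log a ≤ (X : ℝ) ^ 2 →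
  ∀ lam : Fin n → ℕ, (∀ m, lam m + X ≤ (s + 1) * (q * a)) →
    plethMult a (q * a) n lam ≤ plethMult (q * a) a n lam

open Classical in
/-- the exceptional set: partitions of `a (q a)` with at most `a` parts for which Foulkes'
inequality for `(a, q a)` fails. -/
noncomputable def Bad (a q : ℕ) : Finset (Fin a → ℕ) :=
  (Lam a (a * (q * a))).filter fun l => ¬ plethMult a (q * a) a l ≤ plethMult (q * a) a a l

theorem bad_le (H : MultK) {a q s : ℕ} (hs : 2 ≤ s) (hq : 1 ≤ q) (ha : 25 * s ^ 4 * q ^ 2 ≤ a)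
    (hX : (10 : ℝ) ^ 6 * (s : ℝ) ^ 14 * (q : ℝ) ^ 9 * (a : ℝ) * Real.log a ≤
      ((q * a : ℕ) : ℝ) ^ 2) :
    (Bad a q).card * 2 ^ (s / 4) ≤ (a * (q * a) + 1) * (Lam a (a * (q * a))).card := by
  have ha1 : 1 ≤ a := by
    have h1 : 0 < 25 * s ^ 4 * q ^ 2 := by positivity
    omega
  exact almost_abs ha1 hq (fun l => plethMult a (q * a) a l ≤ plethMult (q * a) a a l)
    fun lam hlam => H s q a (q * a) a ha1 hs hq ha hX lam hlam

/-- **Almost all `lam`.** For every `q ≥ 1` and all large `a`, Foulkes' inequality for `(a, q a)`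
holds for all partitions of `q a^2` with at most `a` parts up to a proportion
`exp (- a^(1/15))`. -/
theorem almostK (H : MultK) (q : ℕ) (hq : 1 ≤ q) : ∀ᶠ a : ℕ in atTop,
    ((Bad a q).card : ℝ) ≤
      Real.exp (-(a : ℝ) ^ (1 / 15 : ℝ)) * (Lam a (a * (q * a))).card := by
  filter_upwards [exists_s q hq] with a ⟨s, hs, ha, hX, hE⟩
  have h1 : ((Bad a q).card : ℝ) * (2 : ℝ) ^ (s / 4) ≤
      ((a * (q * a) + 1 : ℕ) : ℝ) * (Lam a (a * (q * a))).card := by
    exact_mod_cast bad_le H hs hq ha hX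
  have h2 : (0 : ℝ) < (2 : ℝ) ^ (s / 4) := by positivity
  refine le_of_mul_le_mul_right (h1.trans ?_) h2
  calc ((a * (q * a) + 1 : ℕ) : ℝ) * (Lam a (a * (q * a))).card
      ≤ (Real.exp (-(a : ℝ) ^ (1 / 15 : ℝ)) * (2 : ℝ) ^ (s / 4)) *
          (Lam a (a * (q * a))).card := mul_le_mul_of_nonneg_right hE (Nat.cast_nonneg _)
    _ = _ := by ring

/-- the same with an explicit threshold `a₀`, and for the good ones. -/
theorem almostK' (H : MultK) (q : ℕ) (hq : 1 ≤ q) : ∃ a₀ : ℕ, ∀ a ≥ a₀,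
    ((Bad a q).card : ℝ) ≤
      Real.exp (-(a : ℝ) ^ (1 / 15 : ℝ)) * (Lam a (a * (q * a))).card :=
  eventually_atTop.1 (almostK H q hq)

end Vale.Agent.P181.H907
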