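import Mathlib

set_option autoImplicit false

namespace Vale.Agent.P181.H907

open Filter

theorem num8 : ∀ᶠ a : ℕ in Filter.atTop, ∀ b : ℕ,
    (10 : ℝ) ^ 8 * (a : ℝ) * (Real.log a) ^ 2 ≤ b → (b : ℝ) ≤ (a : ℝ) ^ ((8 : ℝ) / 7) →
    ∃ s : ℕ, 1 ≤ s ∧ 43680 * (s + 1) ^ 2 ≤ b / a ∧
      (10 : ℝ) ^ 6 * (s : ℝ) ^ 13 * ((b / a : ℕ) : ℝ) ^ 6 * Real.log a ≤ a ∧
      a * (a * b + 17) ≤ 2 ^ (s / 4) := by
  have F1 : ∀ᶠ a : ℕ in atTop, (100 : ℝ) ≤ Real.log a :=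
    (Real.tendsto_log_atTop.comp tendsto_natCast_atTop_atTop).eventually_ge_atTop 100
  have F2 : ∀ᶠ a : ℕ in atTop,
      (10 : ℝ) ^ 6 * 21 ^ 13 * Real.log a ^ (14 : ℝ) ≤ (a : ℝ) ^ ((1 : ℝ) / 7) := by
    have h := (isLittleO_log_rpow_rpow_atTop (14 : ℝ) (show (0 : ℝ) < 1 / 7 by norm_num)).bound
      (show (0 : ℝ) < 1 / (10 ^ 6 * 21 ^ 13) by positivity)
    have h2 := tendsto_natCast_atTop_atTop (R := ℝ) |>.eventually h
    filter_upwards [h2, F1] with a ha h1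
    have hL : (0 : ℝ) ≤ Real.log a ^ (14 : ℝ) := Real.rpow_nonneg (by linarith) _
    have hA : (0 : ℝ) ≤ (a : ℝ) ^ ((1 : ℝ) / 7) := Real.rpow_nonneg (Nat.cast_nonneg a) _
    rw [Real.norm_of_nonneg hL, Real.norm_of_nonneg hA] at ha
    have hc : (0 : ℝ) < 10 ^ 6 * 21 ^ 13 := by positivity
    rw [one_div, inv_mul_eq_div, le_div_iff₀ hc] at ha
    linarith
  filter_upwards [F1, F2] with a h1 h2 b hb1 hb2
  obtain ⟨L, hL⟩ : ∃ L, L = Real.log a := ⟨_, rfl⟩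
  rw [← hL] at h1 h2 hb1 ⊢
  have ha0 : (0 : ℝ) < a := by
    rcases Nat.eq_zero_or_pos a with h | h
    · subst h; simp at hL; linarith
    · exact_mod_cast h
  have haN : 0 < a := by exact_mod_cast ha0
  have haexp : (a : ℝ) = Real.exp L := by rw [hL, Real.exp_log ha0]
  have hs1 : 20 * L ≤ (⌈20 * L⌉₊ : ℝ) := Nat.le_ceil _
  have hs2 : (⌈20 * L⌉₊ : ℝ) < 20 * L + 1 := Nat.ceil_lt_add_one (by linarith)
  obtain ⟨s, hs⟩ : ∃ s, s = ⌈20 * L⌉₊ := ⟨_, rfl⟩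
  rw [← hs] at hs1 hs2
  have hs3 : ((s : ℝ) + 1) ≤ 21 * L := by linarith
  refine ⟨s, ?_, ?_, ?_, ?_⟩
  · have : (1 : ℝ) ≤ s := by linarith
    exact_mod_cast this
  · rw [Nat.le_div_iff_mul_le haN]
    have h3 : (43680 * ((s : ℝ) + 1) ^ 2) * a ≤ b := by
      have h4 : ((s : ℝ) + 1) ^ 2 ≤ (21 * L) ^ 2 := pow_le_pow_left₀ (by positivity) hs3 2
      calc (43680 * ((s : ℝ) + 1) ^ 2) * a ≤ (43680 * (21 * L) ^ 2) * a := by gcongr
        _ ≤ 10 ^ 8 * a * L ^ 2 := by nlinarith [sq_nonneg L, mul_nonneg ha0.le (sq_nonneg L)]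
        _ ≤ b := hb1
    exact_mod_cast h3
  · have h5 : ((b / a : ℕ) : ℝ) ≤ (a : ℝ) ^ ((1 : ℝ) / 7) := by
      calc ((b / a : ℕ) : ℝ) ≤ (b : ℝ) / a := Nat.cast_div_le
        _ ≤ (a : ℝ) ^ ((8 : ℝ) / 7) / a := by gcongr
        _ = (a : ℝ) ^ ((1 : ℝ) / 7) := by
            rw [show ((8 : ℝ) / 7) = 1 / 7 + 1 by norm_num, Real.rpow_add ha0, Real.rpow_one]
            field_simp
    have h6 : ((b / a : ℕ) : ℝ) ^ 6 ≤ (a : ℝ) ^ ((6 : ℝ) / 7) := by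
      calc ((b / a : ℕ) : ℝ) ^ 6 ≤ ((a : ℝ) ^ ((1 : ℝ) / 7)) ^ 6 := by gcongr
        _ = (a : ℝ) ^ ((6 : ℝ) / 7) := by
            rw [← Real.rpow_natCast, ← Real.rpow_mul ha0.le]; norm_num
    have h7 : (s : ℝ) ^ 13 ≤ (21 * L) ^ 13 := pow_le_pow_left₀ (by positivity) (by linarith) 13
    have hL0 : 0 ≤ L := by linarith
    have h8 : Real.log a ^ (14 : ℝ) = L ^ 14 := by
      rw [← hL, show (14 : ℝ) = ((14 : ℕ) : ℝ) by norm_num, Real.rpow_natCast]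
    rw [← hL] at h8
    rw [h8] at h2
    calc (10 : ℝ) ^ 6 * (s : ℝ) ^ 13 * ((b / a : ℕ) : ℝ) ^ 6 * L
        ≤ 10 ^ 6 * (21 * L) ^ 13 * (a : ℝ) ^ ((6 : ℝ) / 7) * L := by gcongr
      _ = (10 ^ 6 * 21 ^ 13 * L ^ 14) * (a : ℝ) ^ ((6 : ℝ) / 7) := by ring
      _ ≤ (a : ℝ) ^ ((1 : ℝ) / 7) * (a : ℝ) ^ ((6 : ℝ) / 7) := by gcongr
      _ = a := by rw [← Real.rpow_add ha0]; norm_num
  · have hb0 : (1 : ℝ) ≤ b := by
      have : (1 : ℝ) ≤ 10 ^ 8 * a * L ^ 2 := by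
        have h9 : (1 : ℝ) ≤ a := by exact_mod_cast haN
        have h10 : (1 : ℝ) ≤ L ^ 2 := by nlinarith
        nlinarith [mul_le_mul h9 h10 (by norm_num) (by linarith)]
      linarith
    have ha1 : (1 : ℝ) ≤ a := by exact_mod_cast haN
    have h11 : (a : ℝ) * (a * b + 17) ≤ 18 * (a ^ 2 * b) := by nlinarith [mul_le_mul ha1 hb0 (by norm_num) (by linarith), mul_nonneg ha0.le (sub_nonneg.2 (show (1 : ℝ) ≤ a * b by nlinarith))]
    have h12 : (18 : ℝ) ≤ Real.exp (L / 4) := by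
      have := Real.add_one_le_exp (L / 4)
      linarith
    have h13 : (b : ℝ) ≤ Real.exp (L * (8 / 7)) := by
      rw [Real.exp_mul, ← haexp]; exact hb2
    have h14 : (a : ℝ) ^ 2 = Real.exp (2 * L) := by
      rw [haexp, ← Real.exp_nat_mul]; norm_num
    have h15 : (a : ℝ) * (a * b + 17) ≤ Real.exp (L / 4 + (2 * L + L * (8 / 7))) := by
      refine h11.trans ?_
      rw [Real.exp_add, Real.exp_add, h14]
      gcongr
    have h16 : (5 * L - 1 : ℝ) ≤ ((s / 4 : ℕ) : ℝ) := by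
      have h17 : s < 4 * (s / 4) + 4 := by omega
      have h18 : (s : ℝ) < 4 * ((s / 4 : ℕ) : ℝ) + 4 := by exact_mod_cast h17
      linarith
    have h19 : Real.exp (L / 4 + (2 * L + L * (8 / 7))) ≤ (2 : ℝ) ^ (s / 4) := by
      rw [← Real.rpow_natCast, Real.rpow_def_of_pos (by norm_num : (0 : ℝ) < 2)]
      apply Real.exp_le_exp.2
      have h20 := Real.log_two_gt_d9
      have h21 : (0.6931471803 : ℝ) * (5 * L - 1) ≤ Real.log 2 * ((s / 4 : ℕ) : ℝ) := by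
        apply mul_le_mul h20.le h16 (by linarith) (by linarith)
      refine le_trans ?_ h21
      linarith
    have h22 := h15.trans h19
    exact_mod_cast h22

end Vale.Agent.P181.H907
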